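import Mathlib
import Vale.Agent.Helper7.AreaDefs
import Vale.Agent.Helper7.AreaAlg
import Vale.Agent.Helper7.AreaMain
import Vale.Agent.Helper7.AreaGeom

/-!
# P356: the area law for commuting finite-range Hamiltonians on the square lattice

For a Hamiltonian `H = ∑_X h_X` on the `L × L` square lattice with local dimension `q`,
Hermitian terms `h_X` acting on the sites of `X`, nonzero only for sets `X` of `ℓ¹`-diameter
at most `R`, and pairwise commuting, every normalised eigenvector `Ω` of `H` whose eigenvalue is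
simple (in particular the ground state when it is unique) satisfies the area law
`S_Ω(A) ≤ 4 (2R+1)² log q · |∂A|` for every region `A`.
-/

namespace Vale.Agent.Results.P356.CommutingAreaLaw

open Vale.Agent.Helper7.AreaDefs Vale.Agent.Helper7.AreaAlg Vale.Agent.Helper7.AreaMain
open Vale.Agent.Helper7.AreaGeom Matrix

theorem isHermitian_sum' {n ι : Type} [Fintype n] (s : Finset ι) (f : ι → Matrix n n ℂ)
    (hf : ∀ i ∈ s, (f i).IsHermitian) : (∑ i ∈ s, f i).IsHermitian :=
  Finset.sum_induction f (fun M => M.IsHermitian) (fun _ _ ha hb => ha.add hb)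
    Matrix.isHermitian_zero hf

theorem commute_sum_sum {n ι : Type} [Fintype n] [DecidableEq n] (s t : Finset ι)
    (f : ι → Matrix n n ℂ) (hf : ∀ i j, f i * f j = f j * f i) :
    Commute (∑ i ∈ s, f i) (∑ j ∈ t, f j) :=
  Commute.sum_left _ _ _ fun i _ => Commute.sum_right _ _ _ fun j _ => hf i j

theorem result (L q R : ℕ)
    (h : Finset (Fin L × Fin L) →
      Matrix (Fin L × Fin L → Fin q) (Fin L × Fin L → Fin q) ℂ)
    (hherm : ∀ X, (h X).IsHermitian)
    (hacts : ∀ X, ActsOn X (h X))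
    (hrange : ∀ X, h X ≠ 0 → ∀ x ∈ X, ∀ y ∈ X, dist1 x y ≤ R)
    (hcomm : ∀ X Y, h X * h Y = h Y * h X)
    (E0 : ℂ) (Ω : (Fin L × Fin L → Fin q) → ℂ)
    (hΩ : (∑ X, h X) *ᵥ Ω = E0 • Ω)
    (hnorm : ∑ σ, Complex.normSq (Ω σ) = 1)
    (hsimple : ∀ v, (∑ X, h X) *ᵥ v = E0 • v → ∃ c : ℂ, v = c • Ω)
    (A : Finset (Fin L × Fin L)) :
    entropy (reduced A Ω) ≤
      4 * (2 * (R : ℝ) + 1) ^ 2 * Real.log q * ((boundary A).card : ℝ) := by
  classical
  set SA : Finset (Finset (Fin L × Fin L)) := Finset.univ.filter fun X => X ⊆ A with hSA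
  set SN : Finset (Finset (Fin L × Fin L)) := Finset.univ.filter fun X => ¬ X ⊆ A with hSN
  set SB : Finset (Finset (Fin L × Fin L)) := SN.filter fun X => X ⊆ Aᶜ with hSB
  set SK : Finset (Finset (Fin L × Fin L)) := SN.filter fun X => ¬ X ⊆ Aᶜ with hSK
  have hsplit : ∑ X, h X = ∑ X ∈ SA, h X + ∑ X ∈ SB, h X + ∑ X ∈ SK, h X := by
    rw [add_assoc, Finset.sum_filter_add_sum_filter_not SN (fun X => X ⊆ Aᶜ) h,
      Finset.sum_filter_add_sum_filter_not Finset.univ (fun X => X ⊆ A) h]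
  set N : Finset (Fin L × Fin L) := (SK.filter fun X => h X ≠ 0).biUnion id with hN
  have aA : ActsOn A (∑ X ∈ SA, h X) := by
    apply actsOn_sum
    intro X hX
    exact actsOn_mono (Finset.mem_filter.mp hX).2 (hacts X)
  have aB : ActsOn Aᶜ (∑ X ∈ SB, h X) := by
    apply actsOn_sum
    intro X hX
    exact actsOn_mono (Finset.mem_filter.mp hX).2 (hacts X)
  have aK : ActsOn N (∑ X ∈ SK, h X) := by
    apply actsOn_sum
    intro X hX
    by_cases h0 : h X = 0
    · rw [h0]
      exact actsOn_zero N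
    · refine actsOn_mono ?_ (hacts X)
      intro x hx
      rw [hN, Finset.mem_biUnion]
      exact ⟨X, Finset.mem_filter.mpr ⟨hX, h0⟩, hx⟩
  rw [hsplit] at hΩ hsimple
  have hent := entropy_bound A N (∑ X ∈ SA, h X) (∑ X ∈ SB, h X) (∑ X ∈ SK, h X)
    (isHermitian_sum' _ _ fun X _ => hherm X) (isHermitian_sum' _ _ fun X _ => hherm X)
    (isHermitian_sum' _ _ fun X _ => hherm X) aA aB aK
    (commute_sum_sum _ _ h hcomm) (commute_sum_sum _ _ h hcomm) (commute_sum_sum _ _ h hcomm)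
    E0 Ω hΩ hnorm hsimple
  have hcard : N.card ≤ 2 * (2 * R + 1) ^ 2 * (boundary A).card := by
    apply card_le_boundary A N R
    intro x hx
    rw [hN, Finset.mem_biUnion] at hx
    obtain ⟨X, hX, hxX⟩ := hx
    have hxX' : x ∈ X := hxX
    rw [Finset.mem_filter] at hX
    obtain ⟨hXK, hX0⟩ := hX
    rw [hSK, Finset.mem_filter, hSN, Finset.mem_filter] at hXK
    obtain ⟨⟨-, hXA⟩, hXB⟩ := hXK
    obtain ⟨w, hwX, hwA⟩ := Finset.not_subset.mp hXA
    obtain ⟨u, huX, huA⟩ := Finset.not_subset.mp hXB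
    refine ⟨u, w, by simpa using huA, hwA, hrange X hX0 x hxX' u huX, hrange X hX0 x hxX' w hwX⟩
  have hlog : 0 ≤ Real.log (q : ℝ) := Real.log_natCast_nonneg q
  have hcard' : (N.card : ℝ) ≤ 2 * (2 * (R : ℝ) + 1) ^ 2 * ((boundary A).card : ℝ) := by
    exact_mod_cast hcard
  calc entropy (reduced A Ω) ≤ 2 * (N.card : ℝ) * Real.log q := hent
    _ ≤ 2 * (2 * (2 * (R : ℝ) + 1) ^ 2 * ((boundary A).card : ℝ)) * Real.log q := by
        apply mul_le_mul_of_nonneg_right _ hlog
        linarith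
    _ = 4 * (2 * (R : ℝ) + 1) ^ 2 * Real.log q * ((boundary A).card : ℝ) := by ring

end Vale.Agent.Results.P356.CommutingAreaLaw
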