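import Mathlib
import Vale.Agent.Helper7.AreaDefs
import Vale.Agent.Results.P356.CommutingAreaLaw

/-!
# P356: the area law for commuting finite-range Hamiltonians, stated without own definitions

The same theorem as `Vale.Agent.Results.P356.CommutingAreaLaw.result`, with every notion written
out in Mathlib terms inside the statement.

* Sites: `Fin L × Fin L`; configurations: `Fin L × Fin L → Fin q`; operators are complex matrices
  indexed by configurations (the product basis of the tensor product of copies of `ℂ^q`).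
* `h X` is the interaction term of the set of sites `X`.  Hypothesis `hacts` says that `h X` acts
  on the tensor factors in `X` and as the identity elsewhere: the entry `h X σ τ` vanishes unless
  `σ` and `τ` agree outside `X`, and then it depends only on the restrictions of `σ`, `τ` to `X`.
* Hypothesis `hrange`: `h X = 0` unless any two sites of `X` are at `ℓ¹` distance at most `R`.
* `ρ` is the reduced density matrix of `Ω` on the region `A`:
  `ρ α α' = ∑_β Ω(α, β) * conj Ω(α', β)`, the sum over the configurations `β` outside `A`.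
* The conclusion: `ρ` is Hermitian, and the sum of `-λ log λ` over its eigenvalues `λ` (its von
  Neumann entropy) is at most `4 (2R+1)² log q` times the number of pairs `(x, y)` of sites with
  `x ∈ A`, `y ∉ A` at `ℓ¹` distance one.
-/

namespace Vale.Agent.Results.P356.CommutingAreaLawPlain

open Matrix

theorem result (L q R : ℕ)
    (h : Finset (Fin L × Fin L) →
      Matrix (Fin L × Fin L → Fin q) (Fin L × Fin L → Fin q) ℂ)
    (hherm : ∀ X, (h X).IsHermitian)
    (hacts : ∀ X,
      (∀ σ τ, (∃ x, x ∉ X ∧ σ x ≠ τ x) → h X σ τ = 0) ∧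
      (∀ σ τ σ' τ', (∀ x ∈ X, σ x = σ' x) → (∀ x ∈ X, τ x = τ' x) →
        (∀ x, x ∉ X → σ x = τ x) → (∀ x, x ∉ X → σ' x = τ' x) → h X σ τ = h X σ' τ'))
    (hrange : ∀ X, h X ≠ 0 → ∀ x ∈ X, ∀ y ∈ X,
      Nat.dist (x.1 : ℕ) (y.1 : ℕ) + Nat.dist (x.2 : ℕ) (y.2 : ℕ) ≤ R)
    (hcomm : ∀ X Y, h X * h Y = h Y * h X)
    (E0 : ℂ) (Ω : (Fin L × Fin L → Fin q) → ℂ)
    (hΩ : (∑ X, h X) *ᵥ Ω = E0 • Ω)
    (hnorm : ∑ σ, Complex.normSq (Ω σ) = 1)
    (hsimple : ∀ v, (∑ X, h X) *ᵥ v = E0 • v → ∃ c : ℂ, v = c • Ω)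
    (A : Finset (Fin L × Fin L)) :
    let ρ : Matrix ({x // x ∈ A} → Fin q) ({x // x ∈ A} → Fin q) ℂ :=
      fun α α' => ∑ β : {x // x ∉ A} → Fin q,
        Ω (fun x => if hx : x ∈ A then α ⟨x, hx⟩ else β ⟨x, hx⟩) *
          star (Ω (fun x => if hx : x ∈ A then α' ⟨x, hx⟩ else β ⟨x, hx⟩))
    ∃ hρ : ρ.IsHermitian,
      ∑ i, Real.negMulLog (hρ.eigenvalues i) ≤
        4 * (2 * (R : ℝ) + 1) ^ 2 * Real.log q *
          (((Finset.univ : Finset ((Fin L × Fin L) × (Fin L × Fin L))).filter fun p =>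
            p.1 ∈ A ∧ p.2 ∉ A ∧
              Nat.dist (p.1.1 : ℕ) (p.2.1 : ℕ) + Nat.dist (p.1.2 : ℕ) (p.2.2 : ℕ) = 1).card : ℝ) := by
  intro ρ
  have hρ : ρ.IsHermitian := by
    apply Matrix.IsHermitian.ext
    intro i j
    simp only [ρ, star_sum, star_mul', star_star]
    exact Finset.sum_congr rfl fun β _ => mul_comm _ _
  refine ⟨hρ, ?_⟩
  have key := Vale.Agent.Results.P356.CommutingAreaLaw.result L q R h hherm hacts hrange hcomm
    E0 Ω hΩ hnorm hsimple A
  have hρ' : (Vale.Agent.Helper7.AreaDefs.reduced A Ω).IsHermitian := hρ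
  unfold Vale.Agent.Helper7.AreaDefs.entropy at key
  rw [dif_pos hρ'] at key
  exact key

end Vale.Agent.Results.P356.CommutingAreaLawPlain
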